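import Vale.Agent.Lib.P038.SatK.Shapes.S6_5_6t
noncomputable section
namespace Vale.Agent.Lib.P038.SatK.I.M1_6
open Vale.Agent.Lib.P038.Sat Vale.Agent.Lib.P038.SatK
def W : Nat := 63
def M : Nat := 9223372036854775807
def GT : Nat := 567779687030294125596277248315597091939928588002303335933529460317778829030295476051591223197760137565205038304565220814959234486540158080613890048349196342952210656590805457694455594904452113585947222908285021790465039413451091305584497621389293430053415955851577510657454351706908843628144270064739208346390377043681108521752188311557087929005425755457308740626588812072876054094533969810407046235804598424348935349534086742540232745011351725566598657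
def h0 : T := (T.l (nat_lit 0))
def H : T := h0
theorem hlast : getB H 0 = 0 := by decide +kernel
end Vale.Agent.Lib.P038.SatK.I.M1_6
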