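import Vale.Agent.Lib.P038.SatK.I.M1_6.H
noncomputable section
namespace Vale.Agent.Lib.P038.SatK.I.M1_6.S0
open Vale.Agent.Lib.P038.Sat Vale.Agent.Lib.P038.SatK Vale.Agent.Lib.P038.SatK.I.M1_6
def b0 : List Nat := [nat_lit 6825768185233469,nat_lit 19606069142626647889,nat_lit 6966522853458029,nat_lit 6896162699214941,nat_lit 170025375983596671614817,nat_lit 7036917367439437,nat_lit 136969963595399686012785,nat_lit 141687140875976027815809,nat_lit 3025924719116311,nat_lit 75566518096363201380945,nat_lit 8652892713873719889,nat_lit 6923088253021208833,nat_lit 8076009766184567041,nat_lit 12688047636856176662,nat_lit 581738528409403601,nat_lit 1158199289269338321,nat_lit 2887722292324876529,nat_lit 7499408319308775665,nat_lit 12112431352633118880,nat_lit 1734730444710101217,nat_lit 2311191205570035937,nat_lit 47285350632973371572244,nat_lit 47285927164103009239060,nat_lit 47286503835970135261204,nat_lit 47287080155993540395028,nat_lit 47287656687123178061844,nat_lit 15213625644426255262544612557023,nat_lit 52010599419656107065364,nat_lit 52011175950785744732180,nat_lit 52011752622652870754324,nat_lit 52012328942676275888148,nat_lit 52012905473805913554964,nat_lit 16798382346457395425088448233711,nat_lit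 146436024201831281479760,nat_lit 42568748757738496851988,nat_lit 42569325288868134518804,nat_lit 42569901960735260540948,nat_lit 42570478280758665674772,nat_lit 42571054811888303341588,nat_lit 18383139048488535587640873844991,nat_lit 33126898095812296704020,nat_lit 33127474626941934370836,nat_lit 33128051298809060392980,nat_lit 33128627618832465526804,nat_lit 33129204149962103193620,nat_lit 19967895750519675750184709521679,nat_lit 37837158902935143186452,nat_lit 37837735434064780853268,nat_lit 37838312105931906875412,nat_lit 37838888425955312009236,nat_lit 37839464957084949676052,nat_lit 13311917601988887067768605638943,nat_lit 80321163848456314441824,nat_lit 85048718618842802311280,nat_lit 151162427387891134255232,nat_lit 155892863547245498355856,nat_lit 11534985764160950336,nat_lit 10957610226773151792,nat_lit 28383779026014212849684,nat_lit 28384355557143850516500,nat_lit 28384932229010976538644,nat_lit 28385508549034381672468,nat_lit 28386085080164019339284,nat_lit 8557647495895466580394796646607]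
def p0 : List Nat := [nat_lit 4503599628115968,nat_lit 147587464488070905858,nat_lit 221383447982163861506,nat_lit 258254418131445989376,nat_lit 332077422123791024136,nat_lit 45035996274401290,nat_lit 49543993947684875,nat_lit 54047593575071756,nat_lit 58552292714643469,nat_lit 63056442097147918,nat_lit 67560041724526603,nat_lit 72064191107735568,nat_lit 76567790735171596,nat_lit 81071940119035922,nat_lit 85574989989830675,nat_lit 90078589617209364,nat_lit 19457793660097561198864318321277423453652490934894615,nat_lit 23948074820002497421621027753233204005090312354619419,nat_lit 1217588706499667157015,nat_lit 29186736173224923014837188757181614648434437344272423,nat_lit 33677017333129859237593898189137395199872258763972653,nat_lit 38167298493034795460350607621093175751310080183697459,nat_lit 1918664073686571687981,nat_lit 1955530536937691693101,nat_lit 1992351967491072983085,nat_lit 2029222937640355651602,nat_lit 252211474738069522,nat_lit 256715074365333522,nat_lit 2139885372840696528954,nat_lit 2176765350189233528891,nat_lit 2213681356334789492796,nat_lit 2250588355281090715667,nat_lit 2287486347028137197588,nat_lit 155986490280293504351821889556]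
def o0 : List Nat := [nat_lit 20]
theorem ok : segCheck (Gen.gen sh_6_5_6_t (flM6 1)) W M GT 6 0 1 H [b0] [] [p0] [o0] = true := by decide +kernel
theorem seg {τ : Nat → Bool} (hgen : ∀ t c, Gen.gen sh_6_5_6_t (flM6 1) t = some c → holdsG τ c)
  (hin : ∀ g, g < 0 → HL W (loc GT τ) (getB H g)) :
  ∀ g, 0 ≤ g → g < 1 → HL W (loc GT τ) (getB H g) :=
  segCheck_sound ok hgen hin
end Vale.Agent.Lib.P038.SatK.I.M1_6.S0
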